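import Mathlib

/-!
# Rounding a fractional cover with independent atoms

`core` : weights `w j ∈ (0,1]` and nonnegative numbers `x j` with `∑ w j * x j ≤ 1/2`.
Then the sets `A` of total weight at least `1/2` can be covered by a family `𝒯` with
`∑_{T ∈ 𝒯} ∏_{j ∈ T} (x j / K) ≤ 1/2`.
-/

namespace Vale.Agent.Lib.P034

open Finset

variable {ι : Type*}

/-- sum over `t`-subsets of a product is at most the exponential of the sum -/
lemma sum_powersetCard_prod_le_exp (C : Finset ι) (y : ι → ℝ) (hy : ∀ j ∈ C, 0 ≤ y j) (t : ℕ) :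
    ∑ T ∈ C.powersetCard t, ∏ j ∈ T, y j ≤ Real.exp (∑ j ∈ C, y j) := by
  have h1 : ∑ T ∈ C.powersetCard t, ∏ j ∈ T, y j ≤ ∑ T ∈ C.powerset, ∏ j ∈ T, y j := by
    apply Finset.sum_le_sum_of_subset_of_nonneg
    · intro T hT
      rw [Finset.mem_powersetCard] at hT
      exact Finset.mem_powerset.mpr hT.1
    · intro T hT _
      exact Finset.prod_nonneg (fun j hj => hy j (Finset.mem_powerset.mp hT hj))
  have h2 : ∑ T ∈ C.powerset, ∏ j ∈ T, y j = ∏ j ∈ C, (1 + y j) := by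
    rw [Finset.prod_one_add]
  have h3 : ∏ j ∈ C, (1 + y j) ≤ ∏ j ∈ C, Real.exp (y j) := by
    apply Finset.prod_le_prod
    · intro j hj
      have := hy j hj
      linarith
    · intro j _
      have := Real.add_one_le_exp (y j)
      linarith
  rw [← Real.exp_sum] at h3
  linarith

lemma sum_range_succ_div_two_pow (m : ℕ) :
    ∑ k ∈ range m, ((k : ℝ) + 1) / 2 ^ k = 4 - (2 * m + 4) / 2 ^ m := by
  induction m with
  | zero => simp
  | succ m ih =>
    rw [Finset.sum_range_succ, ih]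
    have h : (2 : ℝ) ^ m ≠ 0 := by positivity
    rw [pow_succ]
    field_simp
    push_cast
    ring

lemma sum_range_succ_div_two_pow_le (m : ℕ) :
    ∑ k ∈ range m, ((k : ℝ) + 1) / 2 ^ k ≤ 4 := by
  rw [sum_range_succ_div_two_pow]
  have : (0 : ℝ) ≤ (2 * m + 4) / 2 ^ m := by positivity
  linarith

lemma sum_range_quarter_pow_le (m : ℕ) :
    ∑ k ∈ range m, ((1 : ℝ) / 4) ^ (k + 1) ≤ 1 / 2 := by
  have h : ∀ m : ℕ, ∑ k ∈ range m, ((1 : ℝ) / 4) ^ (k + 1) = 1 / 3 - (1 / 3) * (1 / 4) ^ m := by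
    intro m
    induction m with
    | zero => simp
    | succ m ih =>
      rw [Finset.sum_range_succ, ih]
      ring
  rw [h]
  have : (0 : ℝ) ≤ (1 / 3) * (1 / 4) ^ m := by positivity
  linarith

/-- dyadic scale of a weight in `(0,1]` -/
lemma exists_dyadic (w : ℝ) (h0 : 0 < w) (h1 : w ≤ 1) :
    ∃ k : ℕ, ((1 : ℝ) / 2) ^ (k + 1) < w ∧ w ≤ ((1 : ℝ) / 2) ^ k := by
  exact exists_nat_pow_near_of_lt_one h0 h1 (by norm_num) (by norm_num)

/-- the universal constant -/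
noncomputable def K0 : ℝ := 12 * 4 ^ 32

lemma K0_pos : 0 < K0 := by unfold K0; positivity

lemma one_le_K0 : 1 ≤ K0 := by unfold K0; norm_num

/-- cost of all `t`-subsets of a class with `∑ x < 4 t` -/
lemma class_cost (C : Finset ι) (x : ι → ℝ) (hx : ∀ j ∈ C, 0 ≤ x j) (t : ℕ)
    (ht : (∑ j ∈ C, x j) / 4 ≤ t) :
    ∑ T ∈ C.powersetCard t, ∏ j ∈ T, (x j / K0) ≤ ((1 : ℝ) / 4 ^ 32) ^ t := by
  have h1 : ∀ T ∈ C.powersetCard t, ∏ j ∈ T, (x j / K0) = (4 / K0) ^ t * ∏ j ∈ T, (x j / 4) := by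
    intro T hT
    rw [Finset.mem_powersetCard] at hT
    rw [← hT.2, ← Finset.prod_const, ← Finset.prod_mul_distrib]
    apply Finset.prod_congr rfl
    intro j _
    have := K0_pos.ne'
    field_simp
  rw [Finset.sum_congr rfl h1, ← Finset.mul_sum]
  have h2 := sum_powersetCard_prod_le_exp C (fun j => x j / 4)
    (fun j hj => div_nonneg (hx j hj) (by norm_num)) t
  have h3 : ∑ j ∈ C, x j / 4 = (∑ j ∈ C, x j) / 4 := by rw [Finset.sum_div]
  rw [h3] at h2
  have h4 : Real.exp ((∑ j ∈ C, x j) / 4) ≤ 3 ^ t := by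
    calc Real.exp ((∑ j ∈ C, x j) / 4) ≤ Real.exp t := Real.exp_le_exp.mpr ht
      _ = Real.exp 1 ^ t := by rw [← Real.exp_nat_mul]; simp
      _ ≤ 3 ^ t := by
        apply pow_le_pow_left₀ (Real.exp_pos 1).le
        have := Real.exp_one_lt_d9
        linarith
  have h5 : (0 : ℝ) ≤ (4 / K0) ^ t := by
    have := K0_pos
    positivity
  calc (4 / K0) ^ t * ∑ T ∈ C.powersetCard t, ∏ j ∈ T, (x j / 4)
      ≤ (4 / K0) ^ t * 3 ^ t := mul_le_mul_of_nonneg_left (h2.trans h4) h5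
    _ = ((1 : ℝ) / 4 ^ 32) ^ t := by
        rw [← mul_pow]
        congr 1
        unfold K0
        norm_num

end Vale.Agent.Lib.P034
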