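import Vale.Agent.Lib.P034.Core

namespace Vale.Agent.Lib.P034

open Finset

variable {ι : Type*} [DecidableEq ι]

theorem core (C : Finset ι) (w x : ι → ℝ) (hw0 : ∀ j ∈ C, 0 < w j) (hw1 : ∀ j ∈ C, w j ≤ 1)
    (hx : ∀ j ∈ C, 0 ≤ x j) (hcost : ∑ j ∈ C, w j * x j ≤ 1 / 2) :
    ∃ 𝒯 : Finset (Finset ι), (∀ T ∈ 𝒯, T ⊆ C ∧ T.Nonempty) ∧
      (∀ A ⊆ C, 1 / 2 ≤ ∑ j ∈ A, w j → ∃ T ∈ 𝒯, T ⊆ A) ∧
      ∑ T ∈ 𝒯, ∏ j ∈ T, (x j / K0) ≤ 1 / 2 := by
  classical
  have hex : ∀ j : ι, ∃ k : ℕ, j ∈ C → (((1 : ℝ) / 2) ^ (k + 1) < w j ∧ w j ≤ ((1 : ℝ) / 2) ^ k) := by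
    intro j
    by_cases hj : j ∈ C
    · obtain ⟨k, hk⟩ := exists_dyadic (w j) (hw0 j hj) (hw1 j hj)
      exact ⟨k, fun _ => hk⟩
    · exact ⟨0, fun h => absurd h hj⟩
  choose κ hκ using hex
  set m := C.sup κ + 1 with hm
  have hκm : ∀ j ∈ C, κ j ∈ range m := by
    intro j hj
    rw [Finset.mem_range, hm]
    exact Nat.lt_succ_of_le (Finset.le_sup hj)
  set Ck : ℕ → Finset ι := fun k => C.filter (fun j => κ j = k) with hCk
  set P : ℕ → ℝ := fun k => ∑ j ∈ Ck k, x j with hP
  set τ : ℕ → ℝ := fun k => P k / 4 + ((k : ℝ) + 1) / 32 with hτ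
  set t : ℕ → ℕ := fun k => ⌊τ k⌋₊ + 1 with ht
  have hCkC : ∀ k, Ck k ⊆ C := fun k => Finset.filter_subset _ _
  have hP0 : ∀ k, 0 ≤ P k := fun k => Finset.sum_nonneg (fun j hj => hx j (hCkC k hj))
  have hτ0 : ∀ k, 0 ≤ τ k := by
    intro k
    have := hP0 k
    simp only [hτ]
    positivity
  have hτt : ∀ k, τ k < t k := by
    intro k
    simp only [ht]
    push_cast
    exact Nat.lt_floor_add_one (τ k)
  refine ⟨(range m).biUnion (fun k => (Ck k).powersetCard (t k)), ?_, ?_, ?_⟩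
  · intro T hT
    rw [Finset.mem_biUnion] at hT
    obtain ⟨k, _, hT⟩ := hT
    rw [Finset.mem_powersetCard] at hT
    refine ⟨hT.1.trans (hCkC k), ?_⟩
    rw [← Finset.card_pos, hT.2]
    exact Nat.succ_pos _
  · intro A hA hAw
    by_contra hcon
    push Not at hcon
    -- every class meets `A` in fewer than `t k` elements
    have hsmall : ∀ k ∈ range m, ((A.filter (fun j => κ j = k)).card : ℝ) ≤ τ k := by
      intro k hk
      by_contra hlt
      push Not at hlt
      have h1 : t k ≤ (A.filter (fun j => κ j = k)).card := by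
        have h2 : ⌊τ k⌋₊ < (A.filter (fun j => κ j = k)).card := by
          rw [Nat.floor_lt (hτ0 k)]
          exact hlt
        exact h2
      obtain ⟨T, hTsub, hTcard⟩ := Finset.exists_subset_card_eq h1
      apply hcon T
      · rw [Finset.mem_biUnion]
        refine ⟨k, hk, ?_⟩
        rw [Finset.mem_powersetCard]
        refine ⟨?_, hTcard⟩
        intro j hj
        have := Finset.mem_filter.mp (hTsub hj)
        exact Finset.mem_filter.mpr ⟨hA this.1, this.2⟩
      · exact hTsub.trans (Finset.filter_subset _ _)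
    have hsplit : ∑ j ∈ A, w j = ∑ k ∈ range m, ∑ j ∈ A.filter (fun j => κ j = k), w j :=
      (Finset.sum_fiberwise_of_maps_to (fun j hj => hκm j (hA hj)) w).symm
    have hclass : ∀ k ∈ range m, ∑ j ∈ A.filter (fun j => κ j = k), w j
        ≤ τ k * ((1 : ℝ) / 2) ^ k := by
      intro k hk
      calc ∑ j ∈ A.filter (fun j => κ j = k), w j
          ≤ ∑ j ∈ A.filter (fun j => κ j = k), ((1 : ℝ) / 2) ^ k := by
            apply Finset.sum_le_sum
            intro j hj
            have hj' := Finset.mem_filter.mp hj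
            have := (hκ j (hA hj'.1)).2
            rwa [hj'.2] at this
        _ = ((A.filter (fun j => κ j = k)).card : ℝ) * ((1 : ℝ) / 2) ^ k := by
            rw [Finset.sum_const, nsmul_eq_mul]
        _ ≤ τ k * ((1 : ℝ) / 2) ^ k :=
            mul_le_mul_of_nonneg_right (hsmall k hk) (by positivity)
    have hPk : ∀ k ∈ range m, P k * ((1 : ℝ) / 2) ^ k ≤ ∑ j ∈ Ck k, 2 * (w j * x j) := by
      intro k _
      simp only [hP]
      rw [Finset.sum_mul]
      apply Finset.sum_le_sum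
      intro j hj
      have hj' := Finset.mem_filter.mp hj
      have h1 := (hκ j hj'.1).1
      rw [hj'.2, pow_succ] at h1
      have h2 := hx j hj'.1
      nlinarith
    have hsumP : ∑ k ∈ range m, ∑ j ∈ Ck k, 2 * (w j * x j) = ∑ j ∈ C, 2 * (w j * x j) :=
      Finset.sum_fiberwise_of_maps_to hκm _
    have hA1 : ∑ k ∈ range m, P k * ((1 : ℝ) / 2) ^ k ≤ 1 := by
      calc ∑ k ∈ range m, P k * ((1 : ℝ) / 2) ^ k
          ≤ ∑ k ∈ range m, ∑ j ∈ Ck k, 2 * (w j * x j) := Finset.sum_le_sum hPk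
        _ = ∑ j ∈ C, 2 * (w j * x j) := hsumP
        _ = 2 * ∑ j ∈ C, w j * x j := by rw [Finset.mul_sum]
        _ ≤ 1 := by linarith
    have hA2 := sum_range_succ_div_two_pow_le m
    have htot : ∑ k ∈ range m, τ k * ((1 : ℝ) / 2) ^ k
        = (1 / 4) * ∑ k ∈ range m, P k * ((1 : ℝ) / 2) ^ k
          + (1 / 32) * ∑ k ∈ range m, ((k : ℝ) + 1) / 2 ^ k := by
      rw [Finset.mul_sum, Finset.mul_sum, ← Finset.sum_add_distrib]
      apply Finset.sum_congr rfl
      intro k _
      simp only [hτ]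
      rw [one_div_pow]
      ring
    have : ∑ j ∈ A, w j ≤ 3 / 8 := by
      rw [hsplit]
      calc ∑ k ∈ range m, ∑ j ∈ A.filter (fun j => κ j = k), w j
          ≤ ∑ k ∈ range m, τ k * ((1 : ℝ) / 2) ^ k := Finset.sum_le_sum hclass
        _ ≤ 3 / 8 := by rw [htot]; linarith
    linarith
  · have hdisj : Set.PairwiseDisjoint (↑(range m)) (fun k => (Ck k).powersetCard (t k)) := by
      intro k _ k' _ hkk'
      rw [Function.onFun, Finset.disjoint_left]
      intro T hT hT'
      rw [Finset.mem_powersetCard] at hT hT'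
      have hne : T.Nonempty := by
        rw [← Finset.card_pos, hT.2]
        exact Nat.succ_pos _
      obtain ⟨j, hj⟩ := hne
      have h1 := (Finset.mem_filter.mp (hT.1 hj)).2
      have h2 := (Finset.mem_filter.mp (hT'.1 hj)).2
      exact hkk' (h1.symm.trans h2)
    rw [Finset.sum_biUnion hdisj]
    calc ∑ k ∈ range m, ∑ T ∈ (Ck k).powersetCard (t k), ∏ j ∈ T, (x j / K0)
        ≤ ∑ k ∈ range m, ((1 : ℝ) / 4) ^ (k + 1) := by
          apply Finset.sum_le_sum
          intro k _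
          have h1 : (∑ j ∈ Ck k, x j) / 4 ≤ t k := by
            have h2 := hτt k
            simp only [hτ] at h2
            have h3 : (0 : ℝ) ≤ ((k : ℝ) + 1) / 32 := by positivity
            have h4 : P k = ∑ j ∈ Ck k, x j := rfl
            linarith
          refine (class_cost (Ck k) x (fun j hj => hx j (hCkC k hj)) (t k) h1).trans ?_
          have h5 : k + 1 ≤ 32 * t k := by
            have h2 := hτt k
            simp only [hτ] at h2
            have h3 := hP0 k
            have h6 : ((k : ℝ) + 1) < 32 * (t k : ℝ) := by linarith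
            have h7 : ((k + 1 : ℕ) : ℝ) < ((32 * t k : ℕ) : ℝ) := by push_cast; linarith
            exact le_of_lt (by exact_mod_cast h7)
          have h8 : ((1 : ℝ) / 4 ^ 32) ^ (t k) = ((1 : ℝ) / 4) ^ (32 * t k) := by
            rw [pow_mul, one_div_pow (4 : ℝ) 32]
          rw [h8]
          exact pow_le_pow_of_le_one (by norm_num) (by norm_num) h5
      _ ≤ 1 / 2 := sum_range_quarter_pow_le m

end Vale.Agent.Lib.P034
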