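import Vale.Agent.Lib.P034.Cover

namespace Vale.Agent.Lib.P034

open Finset

variable {X : Type*} [Fintype X] [DecidableEq X]

lemma half_le_sum_min (A : Finset (Finset X)) (g : Finset X → ℝ) (r : ℝ) (hr : 0 < r)
    (hg : ∀ S ∈ A, 0 ≤ g S) (h : 1 / (2 * r) ≤ ∑ S ∈ A, g S) :
    1 / 2 ≤ ∑ S ∈ A, min 1 (r * g S) := by
  have hnn : ∀ S ∈ A, 0 ≤ min 1 (r * g S) := fun S hS =>
    le_min zero_le_one (mul_nonneg hr.le (hg S hS))
  by_cases hbig : ∃ S ∈ A, 1 ≤ r * g S
  · obtain ⟨S, hS, h1⟩ := hbig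
    have h2 : min 1 (r * g S) ≤ ∑ S ∈ A, min 1 (r * g S) :=
      Finset.single_le_sum (f := fun S => min 1 (r * g S)) hnn hS
    rw [min_eq_left h1] at h2
    linarith
  · push Not at hbig
    have h1 : ∑ S ∈ A, min 1 (r * g S) = r * ∑ S ∈ A, g S := by
      rw [Finset.mul_sum]
      exact Finset.sum_congr rfl (fun S hS => min_eq_right (hbig S hS).le)
    rw [h1]
    have h2 : r * (1 / (2 * r)) ≤ r * ∑ S ∈ A, g S := mul_le_mul_of_nonneg_left h hr.le
    have h3 : r * (1 / (2 * r)) = 1 / 2 := by field_simp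
    linarith

theorem main (F : Finset (Finset X)) (g : Finset X → ℝ) (p : ℝ) (r : ℕ) (c : Finset X → ℕ)
    (hp0 : 0 ≤ p) (hr : 1 ≤ r) (hg : ∀ S, 0 ≤ g S)
    (hc : ∀ S, g S ≠ 0 → c S < r)
    (hdisj : ∀ S T, g S ≠ 0 → g T ≠ 0 → S ≠ T → c S = c T → Disjoint S T)
    (hcov : ∀ H ∈ F, 1 ≤ ∑ S ∈ H.powerset, g S)
    (hcost : ∑ S : Finset X, g S * p ^ S.card ≤ 1 / 2) :
    ∃ G : Finset (Finset X), (∀ H ∈ F, ∃ S ∈ G, S ⊆ H) ∧
      ∑ S ∈ G, (p / (K0 * (r : ℝ) ^ 2)) ^ S.card ≤ 1 / 2 := by
  classical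
  have hr0 : (0 : ℝ) < r := by exact_mod_cast hr
  have hr1 : (1 : ℝ) ≤ r := by exact_mod_cast hr
  set supp : ℕ → Finset (Finset X) :=
    fun i => univ.filter (fun S => g S ≠ 0 ∧ S.Nonempty ∧ c S = i) with hsupp
  set w : Finset X → ℝ := fun S => min 1 (r * g S) with hw
  set x : Finset X → ℝ := fun S => (p / r) ^ S.card with hx
  have hmem : ∀ i S, S ∈ supp i ↔ (g S ≠ 0 ∧ S.Nonempty ∧ c S = i) := by
    intro i S
    simp [hsupp]
  have hterm : ∀ S : Finset X, 0 ≤ g S * p ^ S.card := fun S =>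
    mul_nonneg (hg S) (pow_nonneg hp0 _)
  have hcore : ∀ i : ℕ, ∃ 𝒯 : Finset (Finset (Finset X)), (∀ T ∈ 𝒯, T ⊆ supp i ∧ T.Nonempty) ∧
      (∀ A ⊆ supp i, 1 / 2 ≤ ∑ j ∈ A, w j → ∃ T ∈ 𝒯, T ⊆ A) ∧
      ∑ T ∈ 𝒯, ∏ j ∈ T, (x j / K0) ≤ 1 / 2 := by
    intro i
    apply core (supp i) w x
    · intro S hS
      have h1 := ((hmem i S).mp hS).1
      have h2 : 0 < g S := lt_of_le_of_ne (hg S) (Ne.symm h1)
      exact lt_min one_pos (mul_pos hr0 h2)
    · intro S _
      exact min_le_left _ _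
    · intro S _
      simp only [hx]
      positivity
    · calc ∑ S ∈ supp i, w S * x S ≤ ∑ S ∈ supp i, g S * p ^ S.card := by
            apply Finset.sum_le_sum
            intro S hS
            have hne := ((hmem i S).mp hS).2.1
            obtain ⟨n, hn⟩ : ∃ n, S.card = n + 1 :=
              Nat.exists_eq_succ_of_ne_zero (Finset.card_pos.mpr hne).ne'
            simp only [hw, hx]
            rw [hn]
            have h1 : min 1 (r * g S) ≤ r * g S := min_le_right _ _
            have h2 : (0 : ℝ) ≤ (p / r) ^ (n + 1) := by positivity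
            calc min 1 (↑r * g S) * (p / ↑r) ^ (n + 1) ≤ (r * g S) * (p / r) ^ (n + 1) :=
                  mul_le_mul_of_nonneg_right h1 h2
              _ = g S * p ^ (n + 1) * (1 / (r : ℝ) ^ n) := by
                  rw [div_pow, pow_succ (r : ℝ) n]
                  field_simp
              _ ≤ g S * p ^ (n + 1) * 1 := by
                  apply mul_le_mul_of_nonneg_left _ (mul_nonneg (hg S) (pow_nonneg hp0 _))
                  rw [div_le_one (by positivity)]
                  exact one_le_pow₀ hr1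
              _ = g S * p ^ (n + 1) := mul_one _
        _ ≤ ∑ S : Finset X, g S * p ^ S.card :=
            Finset.sum_le_sum_of_subset_of_nonneg (Finset.subset_univ _) (fun S _ _ => hterm S)
        _ ≤ 1 / 2 := hcost
  choose 𝒯 h𝒯1 h𝒯2 h𝒯3 using hcore
  refine ⟨((range r).sigma 𝒯).image (fun z => z.2.biUnion id), ?_, ?_⟩
  · intro H hH
    have h1 := hcov H hH
    -- the empty set carries weight at most one half
    have hempty : g ∅ ≤ 1 / 2 := by
      have h2 : g ∅ * p ^ (∅ : Finset X).card ≤ ∑ S : Finset X, g S * p ^ S.card :=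
        Finset.single_le_sum (f := fun S : Finset X => g S * p ^ S.card) (fun S _ => hterm S)
          (Finset.mem_univ ∅)
      simp only [Finset.card_empty, pow_zero, mul_one] at h2
      linarith
    set B := H.powerset.filter (fun S => g S ≠ 0 ∧ S.Nonempty) with hB
    have h3 : ∑ S ∈ H.powerset, g S ≤ g ∅ + ∑ S ∈ B, g S := by
      have h4 : ∑ S ∈ H.powerset, g S = ∑ S ∈ H.powerset.filter (fun S => g S ≠ 0 ∧ S.Nonempty), g S
          + ∑ S ∈ H.powerset.filter (fun S => ¬ (g S ≠ 0 ∧ S.Nonempty)), g S :=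
        (Finset.sum_filter_add_sum_filter_not _ _ _).symm
      have h5 : ∑ S ∈ H.powerset.filter (fun S => ¬ (g S ≠ 0 ∧ S.Nonempty)), g S ≤ g ∅ := by
        have h6 : ∀ S ∈ H.powerset.filter (fun S => ¬ (g S ≠ 0 ∧ S.Nonempty)),
            g S = if S = ∅ then g ∅ else 0 := by
          intro S hS
          have h7 := (Finset.mem_filter.mp hS).2
          by_cases hSe : S = ∅
          · simp [hSe]
          · rw [if_neg hSe]
            by_contra h8
            exact h7 ⟨h8, Finset.nonempty_iff_ne_empty.mpr hSe⟩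
        rw [Finset.sum_congr rfl h6, Finset.sum_ite_eq']
        split_ifs
        · exact le_rfl
        · exact hg ∅
      rw [h4]
      linarith
    have h4 : 1 / 2 ≤ ∑ S ∈ B, g S := by linarith
    have hmaps : ∀ S ∈ B, c S ∈ range r := by
      intro S hS
      exact Finset.mem_range.mpr (hc S (Finset.mem_filter.mp hS).2.1)
    have h5 : ∑ S ∈ B, g S = ∑ i ∈ range r, ∑ S ∈ B.filter (fun S => c S = i), g S :=
      (Finset.sum_fiberwise_of_maps_to hmaps g).symm
    have h6 : ∃ i ∈ range r, 1 / (2 * (r : ℝ)) ≤ ∑ S ∈ B.filter (fun S => c S = i), g S := by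
      by_contra hcon
      push Not at hcon
      have h7 : ∑ i ∈ range r, ∑ S ∈ B.filter (fun S => c S = i), g S
          < ∑ i ∈ range r, 1 / (2 * (r : ℝ)) :=
        Finset.sum_lt_sum_of_nonempty ⟨0, Finset.mem_range.mpr hr⟩ hcon
      rw [Finset.sum_const, Finset.card_range, nsmul_eq_mul] at h7
      have h8 : (r : ℝ) * (1 / (2 * (r : ℝ))) = 1 / 2 := by field_simp
      linarith
    obtain ⟨i, hi, h7⟩ := h6
    have hsub : B.filter (fun S => c S = i) ⊆ supp i := by
      intro S hS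
      have h8 := Finset.mem_filter.mp hS
      have h9 := Finset.mem_filter.mp h8.1
      exact (hmem i S).mpr ⟨h9.2.1, h9.2.2, h8.2⟩
    obtain ⟨T, hT, hTsub⟩ := h𝒯2 i _ hsub
      (half_le_sum_min _ g r hr0 (fun S _ => hg S) h7)
    refine ⟨T.biUnion id, ?_, ?_⟩
    · rw [Finset.mem_image]
      exact ⟨⟨i, T⟩, Finset.mem_sigma.mpr ⟨hi, hT⟩, rfl⟩
    · rw [Finset.biUnion_subset]
      intro S hS
      have h8 := Finset.mem_filter.mp (hTsub hS)
      have h9 := Finset.mem_filter.mp h8.1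
      exact Finset.mem_powerset.mp h9.1
  · set q : ℝ := p / (K0 * (r : ℝ) ^ 2) with hq
    have hq0 : 0 ≤ q := by
      have := K0_pos
      positivity
    have hstep : ∀ i ∈ range r, ∀ T ∈ 𝒯 i, q ^ (T.biUnion id).card
        ≤ (1 / (r : ℝ)) * ∏ S ∈ T, (x S / K0) := by
      intro i _ T hT
      obtain ⟨hTs, hTne⟩ := h𝒯1 i T hT
      have hpd : (T : Set (Finset X)).PairwiseDisjoint id := by
        intro S hS S' hS' hne
        have h1 := (hmem i S).mp (hTs hS)
        have h2 := (hmem i S').mp (hTs hS')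
        exact hdisj S S' h1.1 h2.1 hne (h1.2.2.trans h2.2.2.symm)
      rw [Finset.card_biUnion hpd, ← Finset.prod_pow_eq_pow_sum]
      have h3 : ∀ S ∈ T, q ^ (id S).card ≤ (1 / (r : ℝ)) * (x S / K0) := by
        intro S hS
        have hne := ((hmem i S).mp (hTs hS)).2.1
        obtain ⟨n, hn⟩ : ∃ n, S.card = n + 1 :=
          Nat.exists_eq_succ_of_ne_zero (Finset.card_pos.mpr hne).ne'
        simp only [id, hx, hq]
        rw [hn]
        have hK := K0_pos
        have hK1 := one_le_K0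
        have e1 : p / (K0 * (r : ℝ) ^ 2) = (p / r) * (1 / (K0 * r)) := by
          field_simp
        rw [e1, mul_pow]
        have e2 : (1 / (K0 * (r : ℝ))) ^ (n + 1) ≤ 1 / (K0 * r) := by
          rw [pow_succ]
          have h5 : (1 / (K0 * (r : ℝ))) ^ n ≤ 1 := by
            apply pow_le_one₀ (by positivity)
            rw [div_le_one (by positivity)]
            nlinarith
          have h6 : (0 : ℝ) ≤ 1 / (K0 * r) := by positivity
          nlinarith
        have h7 : (0 : ℝ) ≤ (p / r) ^ (n + 1) := by positivity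
        calc (p / ↑r) ^ (n + 1) * (1 / (K0 * ↑r)) ^ (n + 1)
            ≤ (p / ↑r) ^ (n + 1) * (1 / (K0 * r)) := mul_le_mul_of_nonneg_left e2 h7
          _ = 1 / ↑r * ((p / ↑r) ^ (n + 1) / K0) := by field_simp
      calc ∏ S ∈ T, q ^ (id S).card ≤ ∏ S ∈ T, ((1 / (r : ℝ)) * (x S / K0)) :=
            Finset.prod_le_prod (fun S _ => pow_nonneg hq0 _) h3
        _ = (1 / (r : ℝ)) ^ T.card * ∏ S ∈ T, (x S / K0) := by
            rw [Finset.prod_mul_distrib, Finset.prod_const]
        _ ≤ (1 / (r : ℝ)) * ∏ S ∈ T, (x S / K0) := by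
            apply mul_le_mul_of_nonneg_right
            · obtain ⟨n, hn⟩ : ∃ n, T.card = n + 1 :=
                Nat.exists_eq_succ_of_ne_zero (Finset.card_pos.mpr hTne).ne'
              rw [hn, pow_succ]
              have h5 : (1 / (r : ℝ)) ^ n ≤ 1 := by
                apply pow_le_one₀ (by positivity)
                rw [div_le_one hr0]
                exact hr1
              have h6 : (0 : ℝ) ≤ 1 / r := by positivity
              nlinarith
            · apply Finset.prod_nonneg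
              intro S _
              have := K0_pos
              simp only [hx]
              positivity
    calc ∑ S ∈ ((range r).sigma 𝒯).image (fun z => z.2.biUnion id), q ^ S.card
        ≤ ∑ z ∈ (range r).sigma 𝒯, q ^ (z.2.biUnion id).card :=
          Finset.sum_image_le_of_nonneg (fun u _ => pow_nonneg hq0 _)
      _ = ∑ i ∈ range r, ∑ T ∈ 𝒯 i, q ^ (T.biUnion id).card := by
          rw [Finset.sum_sigma]
      _ ≤ ∑ i ∈ range r, ∑ T ∈ 𝒯 i, (1 / (r : ℝ)) * ∏ S ∈ T, (x S / K0) :=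
          Finset.sum_le_sum (fun i hi => Finset.sum_le_sum (hstep i hi))
      _ = ∑ i ∈ range r, (1 / (r : ℝ)) * ∑ T ∈ 𝒯 i, ∏ S ∈ T, (x S / K0) := by
          apply Finset.sum_congr rfl
          intro i _
          rw [Finset.mul_sum]
      _ ≤ ∑ i ∈ range r, (1 / (r : ℝ)) * (1 / 2) := by
          apply Finset.sum_le_sum
          intro i _
          exact mul_le_mul_of_nonneg_left (h𝒯3 i) (by positivity)
      _ = 1 / 2 := by
          rw [Finset.sum_const, Finset.card_range, nsmul_eq_mul]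
          field_simp

end Vale.Agent.Lib.P034
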